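import Vale.Agent.Lib.P074.Semi

open MeasureTheory Set
open scoped ENNReal NNReal RealInnerProductSpace

namespace Vale.Agent.Lib.P074H

open Vale.Agent.Lib.P074

variable {d : ℕ} {ι : Type*} [Fintype ι] [Nonempty ι]

/-- The cell of a label `i` of a selection `sel`, inside `K`. -/
def cell {ι : Type*} (K : Set (E d)) (sel : E d → ι) (i : ι) : Set (E d) := K ∩ sel ⁻¹' {i}

/-- A Laguerre configuration on `K`: `sel` is a selection of maximisers of the max-affine function
`Mx b ψ` with measurable fibres, and the cell of `i` has volume `m i`. -/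
structure IsCfg (K : Set (E d)) (b : ι → E d) (m ψ : ι → ℝ) (sel : E d → ι) : Prop where
  meas : ∀ i, MeasurableSet (sel ⁻¹' {i})
  max : ∀ x, Mx b ψ x = ⟪x, b (sel x)⟫ - ψ (sel x)
  mass : ∀ i, (volume (cell K sel i)).toReal = m i

/-- The first moment of the cell of `i`, with respect to Lebesgue measure. -/
noncomputable def mom {ι : Type*} (K : Set (E d)) (sel : E d → ι) (i : ι) : E d :=
  ∫ x in cell K sel i, x

end Vale.Agent.Lib.P074H
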