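import Vale.Agent.Lib.P074H.Cells

open MeasureTheory Set Filter Topology
open scoped ENNReal NNReal RealInnerProductSpace

namespace Vale.Agent.Lib.P074H

open Vale.Agent.Lib.P074

variable {d : ℕ} {ι : Type*} [Fintype ι] [Nonempty ι] {K : Set (E d)}

/-- The Kantorovich functional for Lebesgue measure on `K`. -/
noncomputable def Gn (K : Set (E d)) (b : ι → E d) (m ψ : ι → ℝ) : ℝ :=
  (∫ x in K, Mx b ψ x) + ∑ i, m i * ψ i

theorem integrableOn_Mx (hK : IsCompact K) (b : ι → E d) (ψ : ι → ℝ) : IntegrableOn (Mx b ψ) K :=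
  (continuous_Mx b ψ).continuousOn.integrableOn_compact hK

/-- The values of a function of the label integrate to a sum over the cells. -/
theorem integral_label {b : ι → E d} {m ψ : ι → ℝ} {sel : E d → ι} (hK : IsCompact K)
    (h : IsCfg K b m ψ sel) (F : ι → ℝ) :
    IntegrableOn (fun x => F (sel x)) K ∧ ∫ x in K, F (sel x) = ∑ i, m i * F i := by
  classical
  have hKm : MeasurableSet K := hK.isClosed.measurableSet
  have hfin : volume K ≠ ⊤ := hK.measure_lt_top.ne
  have e : (fun x => F (sel x)) = fun x => ∑ i, (sel ⁻¹' {i}).indicator (fun _ => F i) x := by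
    funext x
    rw [Finset.sum_eq_single (sel x)]
    · rw [indicator_of_mem (by simp)]
    · intro j _ hj
      rw [indicator_of_notMem]
      simpa using hj.symm
    · simp
  have hi : ∀ i, IntegrableOn ((sel ⁻¹' {i}).indicator fun _ => F i) K := fun i =>
    (integrableOn_const hfin).indicator (h.meas i)
  constructor
  · rw [e]
    exact integrable_finsetSum _ fun i _ => hi i
  · rw [e, integral_finsetSum _ fun i _ => hi i]
    refine Finset.sum_congr rfl fun i _ => ?_
    rw [setIntegral_indicator (h.meas i), setIntegral_const, smul_eq_mul, Measure.real]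
    have := h.mass i
    unfold cell at this
    rw [this]

/-- A configuration minimises the Kantorovich functional; this is the pointwise inequality. -/
theorem cfg_gap_nonneg {b : ι → E d} {m ψ : ι → ℝ} {sel : E d → ι} (h : IsCfg K b m ψ sel)
    (ψ' : ι → ℝ) (x : E d) : 0 ≤ Mx b ψ' x - Mx b ψ x + (ψ' (sel x) - ψ (sel x)) := by
  have h1 := le_Mx b ψ' x (sel x)
  have h2 := h.max x
  linarith

theorem Gn_sub_eq {b : ι → E d} {m ψ : ι → ℝ} {sel : E d → ι} (hK : IsCompact K)
    (h : IsCfg K b m ψ sel) (ψ' : ι → ℝ) :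
    Gn K b m ψ' - Gn K b m ψ =
      ∫ x in K, (Mx b ψ' x - Mx b ψ x + (ψ' (sel x) - ψ (sel x))) := by
  obtain ⟨hi, he⟩ := integral_label hK h (fun i => ψ' i - ψ i)
  have h1 := integrableOn_Mx hK b ψ'
  have h2 := integrableOn_Mx hK b ψ
  have h12 : IntegrableOn (fun x => Mx b ψ' x - Mx b ψ x) K := h1.sub h2
  rw [integral_add h12 hi, integral_sub h1 h2, he]
  unfold Gn
  simp only [mul_sub, Finset.sum_sub_distrib]
  ring

theorem Gn_min {b : ι → E d} {m ψ : ι → ℝ} {sel : E d → ι} (hK : IsCompact K)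
    (h : IsCfg K b m ψ sel) (ψ' : ι → ℝ) : Gn K b m ψ ≤ Gn K b m ψ' := by
  have h1 := Gn_sub_eq hK h ψ'
  have h2 : 0 ≤ ∫ x in K, (Mx b ψ' x - Mx b ψ x + (ψ' (sel x) - ψ (sel x))) :=
    integral_nonneg fun x => cfg_gap_nonneg h ψ' x
  linarith

/-- **Uniqueness of the weights modulo constants.** A minimiser of the Kantorovich functional for
the masses of a configuration with positive masses on a convex body is the weight of that
configuration up to a constant. -/
theorem weights_unique {b : ι → E d} {m ψ ψ' : ι → ℝ} {sel : E d → ι} (hK : IsCompact K)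
    (hconv : Convex ℝ K) (hint : (interior K).Nonempty) (h : IsCfg K b m ψ sel)
    (hm : ∀ i, 0 < m i) (hmin : Gn K b m ψ' ≤ Gn K b m ψ) : ∃ c, ∀ i, ψ' i = ψ i + c := by
  classical
  have hKm : MeasurableSet K := hK.isClosed.measurableSet
  set u : E d → ℝ := fun x => Mx b ψ' x - Mx b ψ x with hu
  have huc : Continuous u := (continuous_Mx b ψ').sub (continuous_Mx b ψ)
  set F : ι → ℝ := fun i => ψ' i - ψ i with hF
  set H : E d → ℝ := fun x => u x + F (sel x) with hH
  have hHnn : ∀ x, 0 ≤ H x := fun x => cfg_gap_nonneg h ψ' x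
  have hHint : IntegrableOn H K := by
    have h1 := ((integrableOn_Mx hK b ψ').sub (integrableOn_Mx hK b ψ))
    exact h1.add (integral_label hK h F).1
  have hzero : ∫ x in K, H x = 0 := by
    apply le_antisymm
    · have := Gn_sub_eq hK h ψ'
      have e : ∫ x in K, H x =
        ∫ x in K, (Mx b ψ' x - Mx b ψ x + (ψ' (sel x) - ψ (sel x))) := rfl
      rw [e]
      linarith
    · exact integral_nonneg hHnn
  have hae : ∀ᵐ x ∂(volume.restrict K), H x = 0 := by
    have := (integral_eq_zero_iff_of_nonneg_ae (Eventually.of_forall hHnn) hHint).mp hzero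
    filter_upwards [this] with x hx using hx
  -- the values of `u` on `K` lie in a finite set
  set V : Set ℝ := range fun i => -F i with hV
  have hVf : V.Finite := finite_range _
  have hVc : IsClosed V := hVf.isClosed
  set C : Set (E d) := u ⁻¹' V with hC
  have hCc : IsClosed C := hVc.preimage huc
  have hnull : volume (K \ C) = 0 := by
    have hae' : ∀ᵐ x ∂(volume : Measure (E d)), x ∈ K → H x = 0 :=
      (ae_restrict_iff' hKm).mp hae
    rw [measure_eq_zero_iff_ae_notMem]
    filter_upwards [hae'] with x hx hmem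
    apply hmem.2
    refine ⟨sel x, ?_⟩
    have := hx hmem.1
    simp only [hH] at this
    simp only
    linarith
  have hintC : interior K ⊆ C := by
    intro x hx
    by_contra hxC
    have hopen : IsOpen (interior K ∩ Cᶜ) := isOpen_interior.inter hCc.isOpen_compl
    have hpos : 0 < volume (interior K ∩ Cᶜ) := hopen.measure_pos (volume : Measure (E d)) ⟨x, hx, hxC⟩
    have hsub : interior K ∩ Cᶜ ⊆ K \ C := fun y hy => ⟨interior_subset hy.1, hy.2⟩
    have hle : volume (interior K ∩ Cᶜ) ≤ volume (K \ C) := measure_mono hsub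
    rw [hnull] at hle
    exact absurd (lt_of_lt_of_le hpos hle) (lt_irrefl _)
  have hKC : K ⊆ C := by
    have h1 : closure (interior K) ⊆ C := hCc.closure_subset_iff.mpr hintC
    have h2 : closure (interior K) = closure K :=
      hconv.closure_interior_eq_closure_of_nonempty_interior hint
    rw [h2] at h1
    exact subset_closure.trans h1
  obtain ⟨c₀, _, hc₀⟩ := hconv.isPreconnected.eqOn_const_of_mapsTo (T := V) hVf.isDiscrete
    huc.continuousOn (fun x hx => hKC hx) ⟨-F (Classical.arbitrary ι), _, rfl⟩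
  refine ⟨-c₀, fun i => ?_⟩
  -- each cell has a good point
  have hcell : volume (cell K sel i) ≠ 0 := by
    intro h0
    have := h.mass i
    rw [h0] at this
    have h2 := hm i
    simp only [ENNReal.toReal_zero] at this
    linarith
  have hae' : ∀ᵐ x ∂(volume : Measure (E d)), x ∈ K → H x = 0 :=
    (ae_restrict_iff' hKm).mp hae
  have hex : ∃ x ∈ cell K sel i, H x = 0 := by
    by_contra hcon
    push Not at hcon
    apply hcell
    rw [measure_eq_zero_iff_ae_notMem]
    filter_upwards [hae'] with x hx hmem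
    exact hcon x hmem (hx hmem.1)
  obtain ⟨x, hxc, hx0⟩ := hex
  have hxK : x ∈ K := hxc.1
  have hsel : sel x = i := hxc.2
  have h1 := hc₀ hxK
  simp only [hH, hsel, Function.const] at hx0 h1
  simp only [hF] at hx0
  linarith

/-- The sum of the masses of a configuration is the volume of `K`. -/
theorem cfg_sum_mass {b : ι → E d} {m ψ : ι → ℝ} {sel : E d → ι} (hK : IsCompact K)
    (h : IsCfg K b m ψ sel) : ∑ i, m i = (volume K).toReal := by
  obtain ⟨_, he⟩ := integral_label hK h (fun _ => 1)
  simp only [mul_one, setIntegral_const, smul_eq_mul, Measure.real] at he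
  linarith

theorem Gn_shift {b : ι → E d} {m : ι → ℝ} (hK : IsCompact K) (hsum : ∑ i, m i = (volume K).toReal)
    (ψ : ι → ℝ) (c : ℝ) : Gn K b m (fun i => ψ i - c) = Gn K b m ψ := by
  unfold Gn
  have e1 : ∫ x in K, Mx b (fun i => ψ i - c) x = (∫ x in K, Mx b ψ x) + c * (volume K).toReal := by
    simp_rw [Mx_shift]
    rw [integral_add (integrableOn_Mx hK b ψ) (integrableOn_const hK.measure_lt_top.ne)]
    simp [Measure.real, mul_comm]
  have e2 : ∑ i, m i * (ψ i - c) = ∑ i, m i * ψ i - c * (volume K).toReal := by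
    simp_rw [mul_sub]
    rw [Finset.sum_sub_distrib, ← Finset.sum_mul, hsum]
    ring
  rw [e1, e2]
  ring

theorem continuous_integral_Mx (hK : IsCompact K) (b : ι → E d) :
    Continuous fun ψ : ι → ℝ => ∫ x in K, Mx b ψ x := by
  have : LipschitzWith (volume K).toReal.toNNReal fun ψ : ι → ℝ => ∫ x in K, Mx b ψ x := by
    apply LipschitzWith.of_dist_le_mul
    intro ψ ψ'
    rw [Real.dist_eq, ← integral_sub (integrableOn_Mx hK b ψ) (integrableOn_Mx hK b ψ')]
    have h2 : ‖∫ x in K, (Mx b ψ x - Mx b ψ' x)‖ ≤ dist ψ ψ' * (volume K).toReal := by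
      have := norm_setIntegral_le_of_norm_le_const (μ := (volume : Measure (E d))) (s := K)
        (f := fun x => Mx b ψ x - Mx b ψ' x) (C := dist ψ ψ') hK.measure_lt_top (fun x _ => by
          rw [Real.norm_eq_abs]
          exact abs_Mx_sub_le b ψ ψ' x)
      simpa [Measure.real] using this
    rw [Real.norm_eq_abs] at h2
    rw [Real.coe_toNNReal _ ENNReal.toReal_nonneg, mul_comm]
    exact h2
  exact this.continuous

theorem continuous_Gn (hK : IsCompact K) (b : ι → E d) (m : ι → ℝ) : Continuous (Gn K b m) := by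
  unfold Gn
  apply (continuous_integral_Mx hK b).add
  apply continuous_finsetSum
  intro i _
  fun_prop

/-- All the cells of a configuration with positive masses are nonempty, so the weights have
bounded oscillation. -/
theorem cfg_weight_diff {b : ι → E d} {m ψ : ι → ℝ} {sel : E d → ι} (h : IsCfg K b m ψ sel)
    (hm : ∀ i, 0 < m i) {R : ℝ} (hR : ∀ x ∈ K, ‖x‖ ≤ R) (i j : ι) :
    ψ i - ψ j ≤ R * ‖b i - b j‖ := by
  have hne : (cell K sel i).Nonempty := by
    by_contra hemp
    rw [not_nonempty_iff_eq_empty] at hemp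
    have := h.mass i
    rw [hemp, measure_empty, ENNReal.toReal_zero] at this
    linarith [hm i]
  obtain ⟨x, hxK, hsel⟩ := hne
  have hsel' : sel x = i := hsel
  have h1 := h.max x
  rw [hsel'] at h1
  have h2 := le_Mx b ψ x j
  have h3 : ⟪x, b i - b j⟫ ≤ R * ‖b i - b j‖ := by
    calc ⟪x, b i - b j⟫ ≤ ‖x‖ * ‖b i - b j‖ := real_inner_le_norm _ _
      _ ≤ R * ‖b i - b j‖ := mul_le_mul_of_nonneg_right (hR x hxK) (norm_nonneg _)
  rw [inner_sub_right] at h3
  linarith

/-- **Limit of the weights.** If the masses `mn` converge to the masses `m` of a configuration with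
positive masses on a convex body, then the weights of the configurations for `mn` converge modulo
constants to the weights for `m`. -/
theorem weight_limit {b : ι → E d} {m ψ : ι → ℝ} {sel : E d → ι} (hK : IsCompact K)
    (hconv : Convex ℝ K) (hint : (interior K).Nonempty) (_hb : Function.Injective b)
    (h : IsCfg K b m ψ sel) (hm : ∀ i, 0 < m i) {mn : ℕ → ι → ℝ} (hlim : Tendsto mn atTop (𝓝 m))
    {ψn : ℕ → ι → ℝ} {selN : ℕ → E d → ι} (hn : ∀ n, IsCfg K b (mn n) (ψn n) (selN n))
    (t : ι → ℝ) (ht : ∑ i, t i = 0) :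
    Tendsto (fun n => ∑ i, t i * ψn n i) atTop (𝓝 (∑ i, t i * ψ i)) := by
  classical
  obtain ⟨R, hR⟩ := hK.isBounded.exists_norm_le
  set i₀ : ι := Classical.arbitrary ι with hi₀
  have hsumm : ∑ i, m i = (volume K).toReal := cfg_sum_mass hK h
  -- eventual positivity
  have hpos : ∀ᶠ n in atTop, ∀ i, 0 < mn n i := by
    rw [eventually_all]
    intro i
    have h1 : Tendsto (fun n => mn n i) atTop (𝓝 (m i)) := (tendsto_pi_nhds.mp hlim) i
    exact h1.eventually (lt_mem_nhds (hm i))
  -- normalised weights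
  set ν : ℕ → ι → ℝ := fun n i => ψn n i - ψn n i₀ with hν
  set ν₀ : ι → ℝ := fun i => ψ i - ψ i₀ with hν₀
  set B : ℝ := R * ∑ i, ∑ j, ‖b i - b j‖ with hB
  have hcomp : IsCompact (Metric.closedBall (0 : ι → ℝ) |B|) := isCompact_closedBall _ _
  have hR0 : 0 ≤ R := by
    obtain ⟨x, hx⟩ := hint
    exact (norm_nonneg _).trans (hR x (interior_subset hx))
  have hνB : ∀ᶠ n in atTop, ν n ∈ Metric.closedBall (0 : ι → ℝ) |B| := by
    filter_upwards [hpos] with n hn0
    rw [mem_closedBall_zero_iff, pi_norm_le_iff_of_nonneg (abs_nonneg _)]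
    intro i
    have hle : ∀ i j, ‖b i - b j‖ ≤ ∑ i, ∑ j, ‖b i - b j‖ := by
      intro i j
      calc ‖b i - b j‖ ≤ ∑ j, ‖b i - b j‖ :=
            Finset.single_le_sum (f := fun j => ‖b i - b j‖) (fun _ _ => norm_nonneg _)
              (Finset.mem_univ j)
        _ ≤ ∑ i, ∑ j, ‖b i - b j‖ :=
            Finset.single_le_sum (f := fun i => ∑ j, ‖b i - b j‖)
              (fun _ _ => Finset.sum_nonneg fun _ _ => norm_nonneg _) (Finset.mem_univ i)
    have h1 := cfg_weight_diff (hn n) hn0 hR i i₀
    have h2 := cfg_weight_diff (hn n) hn0 hR i₀ i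
    have h3 : R * ‖b i - b i₀‖ ≤ B := mul_le_mul_of_nonneg_left (hle _ _) hR0
    have h4 : R * ‖b i₀ - b i‖ ≤ B := mul_le_mul_of_nonneg_left (hle _ _) hR0
    rw [Real.norm_eq_abs, abs_le]
    have h5 := le_abs_self B
    simp only [hν]
    constructor <;> linarith
  -- the almost minimality of the normalised weights
  have hsumn : ∀ n, ∑ i, mn n i = (volume K).toReal := fun n => cfg_sum_mass hK (hn n)
  have hminn : ∀ n, Gn K b (mn n) (ν n) ≤ Gn K b (mn n) ν₀ := by
    intro n
    rw [Gn_shift hK (hsumn n) (ψn n) (ψn n i₀)]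
    exact Gn_min hK (hn n) ν₀
  have hbound : ∀ (a ν' : ι → ℝ), |∑ i, a i * ν' i| ≤ (∑ i, |a i|) * ‖ν'‖ := by
    intro a ν'
    calc |∑ i, a i * ν' i| ≤ ∑ i, |a i * ν' i| := Finset.abs_sum_le_sum_abs _ _
      _ ≤ ∑ i, |a i| * ‖ν'‖ := by
        apply Finset.sum_le_sum
        intro i _
        rw [abs_mul]
        exact mul_le_mul_of_nonneg_left (norm_le_pi_norm ν' i) (abs_nonneg _)
      _ = (∑ i, |a i|) * ‖ν'‖ := by rw [Finset.sum_mul]
  set δ : ℕ → ℝ := fun n => (∑ i, |mn n i - m i|) * (2 * (|B| + ‖ν₀‖)) with hδ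
  have hδlim : Tendsto δ atTop (𝓝 0) := by
    have h1 : Tendsto (fun n => ∑ i, |mn n i - m i|) atTop (𝓝 (∑ i, |m i - m i|)) := by
      apply tendsto_finsetSum
      intro i _
      exact (((tendsto_pi_nhds.mp hlim) i).sub_const (m i)).abs
    simp only [sub_self, abs_zero, Finset.sum_const_zero] at h1
    have := h1.mul_const (2 * (|B| + ‖ν₀‖))
    simpa [hδ] using this
  have halmost : ∀ᶠ n in atTop, Gn K b m (ν n) ≤ Gn K b m ν₀ + δ n := by
    filter_upwards [hνB] with n hνn
    have h1 := hminn n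
    have hν1 : ‖ν n‖ ≤ |B| := by simpa using hνn
    have hdiff : ∀ ν' : ι → ℝ, Gn K b (mn n) ν' = Gn K b m ν' + ∑ i, (mn n i - m i) * ν' i := by
      intro ν'
      unfold Gn
      simp only [sub_mul, Finset.sum_sub_distrib]
      ring
    rw [hdiff, hdiff] at h1
    have hS0 : 0 ≤ ∑ i, |mn n i - m i| := Finset.sum_nonneg fun _ _ => abs_nonneg _
    have h2 := hbound (fun i => mn n i - m i) (ν n)
    have h3 := hbound (fun i => mn n i - m i) ν₀
    have h4 : (∑ i, |mn n i - m i|) * ‖ν n‖ ≤ (∑ i, |mn n i - m i|) * (|B| + ‖ν₀‖) :=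
      mul_le_mul_of_nonneg_left (by linarith [norm_nonneg ν₀]) hS0
    have h5 : (∑ i, |mn n i - m i|) * ‖ν₀‖ ≤ (∑ i, |mn n i - m i|) * (|B| + ‖ν₀‖) :=
      mul_le_mul_of_nonneg_left (by linarith [abs_nonneg B]) hS0
    have h6 := (abs_le.mp h2).1
    have h7 := (abs_le.mp h3).2
    simp only [hδ]
    nlinarith
  -- the cluster points
  have hclust : ∀ x ∈ Metric.closedBall (0 : ι → ℝ) |B|, MapClusterPt x atTop ν → x = ν₀ := by
    intro x _ hx
    have hle : Gn K b m x ≤ Gn K b m ν₀ := by
      apply le_of_forall_pos_le_add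
      intro η hη
      have hclosed : IsClosed {y : ι → ℝ | Gn K b m y ≤ Gn K b m ν₀ + η} :=
        isClosed_le (continuous_Gn hK b m) continuous_const
      apply hclosed.mem_of_mapClusterPt hx
      have hev : ∀ᶠ n in atTop, δ n < η := hδlim.eventually (gt_mem_nhds hη)
      filter_upwards [hev, halmost] with n hn1 hn2
      change Gn K b m (ν n) ≤ _
      linarith
    have hle' : Gn K b m x ≤ Gn K b m ψ := by
      have e := Gn_shift (b := b) hK hsumm ψ (ψ i₀)
      rw [← e]
      exact hle
    obtain ⟨c, hc⟩ := weights_unique hK hconv hint h hm hle'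
    -- normalisation of the cluster point
    have hx0 : x i₀ = 0 := by
      have hclosed : IsClosed {y : ι → ℝ | y i₀ = 0} :=
        isClosed_eq (continuous_apply i₀) continuous_const
      apply hclosed.mem_of_mapClusterPt hx
      filter_upwards with n
      simp [hν]
    funext i
    have h1 := hc i
    have h2 := hc i₀
    simp only [hν₀]
    rw [hx0] at h2
    linarith
  have hlimν : Tendsto ν atTop (𝓝 ν₀) :=
    hcomp.tendsto_nhds_of_unique_mapClusterPt hνB hclust
  -- conclusion
  have hlin : Continuous fun y : ι → ℝ => ∑ i, t i * y i := by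
    apply continuous_finsetSum
    intro i _
    fun_prop
  have h1 := hlin.tendsto ν₀ |>.comp hlimν
  have e0 : ∑ i, t i * ν₀ i = ∑ i, t i * ψ i := by
    simp only [hν₀, mul_sub, Finset.sum_sub_distrib, ← Finset.sum_mul, ht, zero_mul, sub_zero]
  have en : ∀ n, ∑ i, t i * ν n i = ∑ i, t i * ψn n i := by
    intro n
    simp only [hν, mul_sub, Finset.sum_sub_distrib, ← Finset.sum_mul, ht, zero_mul, sub_zero]
  rw [e0] at h1
  refine h1.congr (fun n => ?_)
  simp only [Function.comp]
  exact en n

end Vale.Agent.Lib.P074H
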